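import Mathlib
import Vale.Agent.Lib.P061.Thin

open Vale.Agent.Lib.P061

namespace Vale.Agent.Results.P061.A_transitive

/-- First part (unconditional): in every finite `k`-regular vertex-transitive simple graph, every
edge has effective resistance at most `12 / k`, that is, `(f x - f y)^2 ≤ (12 / k) * energy G f`
for all functions `f` and all edges `xy`, where `energy G f` is the sum over the edges of the squared
differences of `f`.

Second part (conditional only on `MSS2`, which is the published theorem of Marcus, Spielman and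
Srivastava, Interlacing families II, Corollary 1.5 with `r = 2` for real vectors, stated as a
hypothesis since it is not in Mathlib): there is an absolute constant `C` such that every connected
`k`-regular vertex-transitive simple graph has a spanning tree `T` with
`|δ_T(S)| ≤ (C / k) * |δ_G(S)|` for all sets `S`, and also `energy T f ≤ (C / k) * energy G f` for all
functions `f`. -/
theorem result :
    (∀ (V : Type) [Fintype V] [DecidableEq V] (G : SimpleGraph V) [DecidableRel G.Adj] (k : ℕ),
      0 < k → G.IsRegularOfDegree k → (∀ x y : V, ∃ σ : G ≃g G, σ x = y) →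
      ∀ (f : V → ℝ) (x y : V), G.Adj x y → (f x - f y) ^ 2 ≤ (12 / (k : ℝ)) * energy G f) ∧
    (MSS2 → ∃ C : ℝ, 0 < C ∧
      ∀ (V : Type) [Fintype V] [DecidableEq V] (G : SimpleGraph V) [DecidableRel G.Adj] (k : ℕ),
        0 < k → G.Connected → G.IsRegularOfDegree k → (∀ x y : V, ∃ σ : G ≃g G, σ x = y) →
        ∃ (T : SimpleGraph V) (_ : DecidableRel T.Adj), T ≤ G ∧ T.IsTree ∧
          (∀ S : Set V, (Set.ncard {p : V × V | p.1 ∈ S ∧ p.2 ∉ S ∧ T.Adj p.1 p.2} : ℝ) ≤
            (C / (k : ℝ)) * (Set.ncard {p : V × V | p.1 ∈ S ∧ p.2 ∉ S ∧ G.Adj p.1 p.2} : ℝ)) ∧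
          (∀ f : V → ℝ, energy T f ≤ (C / (k : ℝ)) * energy G f)) := by
  refine ⟨?_, ?_⟩
  · intro V _ _ G _ k hk hreg htrans f x y hxy
    exact edge_diff_sq_le hreg hk htrans f hxy
  · intro hMSS
    refine ⟨768 * Real.exp (15 / 2), by positivity, ?_⟩
    intro V _ _ G _ k hk hG hreg htrans
    obtain ⟨T, hdec, h1, h2, h3, h4⟩ := transitive_thin_tree hMSS G hG hk hreg htrans
    exact ⟨T, hdec, h1, h2, h4, h3⟩

end Vale.Agent.Results.P061.A_transitive
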